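import Mathlib

/-!
# P323, section 6: filter control

Stated from a minimal interface: a category whose maps are all mono, with an exhausting chain of
stages indexed by the ordinals of the lowest universe.
-/

namespace Vale.Agent.P323.H151

open CategoryTheory Order

universe v u

/-- `Le u v`: the map `u` factors through the map `v` (same target). -/
def Le {D : Type u} [Category.{v} D] {x y b : D} (f : x ⟶ b) (g : y ⟶ b) : Prop :=
  ∃ h : x ⟶ y, h ≫ g = f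

/-- The part of the tower interface that is used in section 6. -/
structure StageData (D : Type u) [Category.{v} D] where
  Mem : Ordinal.{0} → ∀ {x y : D}, (x ⟶ y) → Prop
  Ob : Ordinal.{0} → D → Prop
  mono : ∀ {x y : D} (f : x ⟶ y), Mono f
  mem_mono : ∀ {i j : Ordinal.{0}} {x y : D} {f : x ⟶ y}, i ≤ j → Mem i f → Mem j f
  mem_comp : ∀ {i : Ordinal.{0}} {x y z : D} {f : x ⟶ y} {g : y ⟶ z}, Mem i f → Mem i g →
    Mem i (f ≫ g)
  mem_limit : ∀ {i : Ordinal.{0}} {x y : D} {f : x ⟶ y}, IsSuccLimit i → Mem i f → ∃ j < i, Mem j f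
  exists_mem : ∀ {x y : D} (f : x ⟶ y), ∃ i, Mem i f
  small_mem : ∀ (i : Ordinal.{0}) (x y : D), Small.{0} {f : x ⟶ y // Mem i f}
  ob_mono : ∀ {i j : Ordinal.{0}} {b : D}, i ≤ j → Ob i b → Ob j b
  a : ℕ → D
  io : ∀ n, a n ⟶ a (n + 1)
  mem_io : ∀ n, Mem 0 (io n)
  io_not_split : ∀ (n : ℕ) (h : a (n + 1) ⟶ a n), h ≫ io n ≠ 𝟙 _
  newMap : ∀ {i : Ordinal.{0}} {d b : D} (x : d ⟶ b), Ob i b → Mem (i + 1) x → ¬ Mem i x →
    ∃ (n : ℕ) (A : a (n + 1) ⟶ b) (P : D) (p : P ⟶ d) (p' : P ⟶ a n),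
      Mem i A ∧ Mem i p ∧ Mem i p' ∧ p ≫ x = p' ≫ io n ≫ A ∧
      (∀ {e : D} (w : e ⟶ d), Mem i (w ≫ x) → Le w p) ∧
      (∀ {e : D} (d' : e ⟶ b), Mem i d' →
        (Le A d' ∧ Le x d') ∨
          ∀ {c : D} (w : c ⟶ d) (w' : c ⟶ e), w ≫ x = w' ≫ d' → Le w p) ∧
      ¬ Le (𝟙 d) p

variable {D : Type u} [Category.{v} D]

lemma Le.refl {x b : D} (f : x ⟶ b) : Le f f := ⟨𝟙 _, by simp⟩

lemma Le.trans {x y z b : D} {f : x ⟶ b} {g : y ⟶ b} {h : z ⟶ b} (h1 : Le f g) (h2 : Le g h) :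
    Le f h := by
  obtain ⟨p, rfl⟩ := h1
  obtain ⟨q, rfl⟩ := h2
  exact ⟨p ≫ q, by simp⟩

lemma Le.comp_left {x y z : D} (w : z ⟶ x) (f : x ⟶ y) : Le (w ≫ f) f := ⟨w, rfl⟩

lemma Le.comp_right {x y b c : D} {f : x ⟶ b} {g : y ⟶ b} (h : Le f g) (k : b ⟶ c) :
    Le (f ≫ k) (g ≫ k) := by
  obtain ⟨p, rfl⟩ := h
  exact ⟨p, by simp⟩

/-- A filter of subobjects of `b`. -/
structure SubFilter (b : D) where
  sets : ∀ ⦃x : D⦄, (x ⟶ b) → Prop
  one_mem : sets (𝟙 b)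
  up : ∀ ⦃x y : D⦄ (f : x ⟶ b) (g : y ⟶ b), sets f → Le f g → sets g
  inter : ∀ ⦃x y : D⦄ (f : x ⟶ b) (g : y ⟶ b), sets f → sets g →
    ∃ (z : D) (w : z ⟶ b), sets w ∧ Le w f ∧ Le w g

/-- The filter is generated by its part in stage `i`. -/
def SubFilter.GenBy (T : StageData D) {b : D} (F : SubFilter b) (i : Ordinal.{0}) : Prop :=
  ∀ ⦃x : D⦄ (f : x ⟶ b), F.sets f → ∃ (y : D) (e : y ⟶ b), F.sets e ∧ T.Mem i e ∧ Le e f

/-- The descent along births. -/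
lemma genBy_of_step (T : StageData D) {b : D} (F : SubFilter b) (i0 : Ordinal.{0})
    (h : ∀ i, i0 ≤ i → ∀ ⦃x : D⦄ (f : x ⟶ b), F.sets f → T.Mem (i + 1) f →
      ∃ (y : D) (e : y ⟶ b), F.sets e ∧ T.Mem i e ∧ Le e f) : F.GenBy T i0 := by
  have key : ∀ (j : Ordinal.{0}) ⦃x : D⦄ (f : x ⟶ b), F.sets f → T.Mem j f →
      ∃ (y : D) (e : y ⟶ b), F.sets e ∧ T.Mem i0 e ∧ Le e f := by
    intro j
    induction j using WellFoundedLT.induction with
    | ind j ih =>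
      intro x f hf hm
      rcases le_or_gt j i0 with hj | hj
      · exact ⟨x, f, hf, T.mem_mono hj hm, Le.refl f⟩
      · rcases Ordinal.zero_or_succ_or_isSuccLimit j with h0 | ⟨j', rfl⟩ | hl
        · subst h0
          exact absurd hj (not_lt.mpr (zero_le))
        · have hj' : i0 ≤ j' := Order.lt_succ_iff.mp hj
          obtain ⟨y, e, he, hme, hle⟩ := h j' hj' f hf (by simpa using hm)
          obtain ⟨z, e', he', hme', hle'⟩ := ih j' (Order.lt_succ j') e he hme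
          exact ⟨z, e', he', hme', hle'.trans hle⟩
        · obtain ⟨j', hj', hm'⟩ := T.mem_limit hl hm
          exact ih j' hj' f hf hm'
  intro x f hf
  obtain ⟨j, hj⟩ := T.exists_mem f
  exact key j f hf hj

/-- The next element of an unbounded set of ordinals. -/
lemma exists_least {S : Set Ordinal.{0}} (hS : ∀ i, ∃ j ∈ S, i ≤ j) (i : Ordinal.{0}) :
    ∃ j ∈ S, i ≤ j ∧ ∀ j' ∈ S, i ≤ j' → j ≤ j' := by
  obtain ⟨j, hj, hij⟩ := hS i
  have hne : {j | j ∈ S ∧ i ≤ j}.Nonempty := ⟨j, hj, hij⟩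
  refine ⟨sInf {j | j ∈ S ∧ i ≤ j}, (csInf_mem hne).1, (csInf_mem hne).2, fun j' h1 h2 => ?_⟩
  exact csInf_le' ⟨h1, h2⟩

/-- A limit point of an unbounded set which is closed under a given function. -/
lemma exists_closed_limit {S : Set Ordinal.{0}} (hS : ∀ i, ∃ j ∈ S, i ≤ j)
    (F : Ordinal.{0} → Ordinal.{0}) (k : Ordinal.{0}) :
    ∃ d : Ordinal.{0}, k < d ∧ IsSuccLimit d ∧ (∀ i < d, ∃ j ∈ S, i ≤ j ∧ j < d) ∧
      ∀ i < d, ∃ i', i ≤ i' ∧ F i' < d := by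
  choose nx hnx hnx' using hS
  let c : ℕ → Ordinal.{0} := fun n => Nat.rec k (fun _ x => max (max (x + 1) (F x + 1)) (nx x + 1)) n
  have hc : ∀ n, c (n + 1) = max (max (c n + 1) (F (c n) + 1)) (nx (c n) + 1) := fun n => rfl
  have hlt : ∀ n, c n < c (n + 1) := fun n => by
    rw [hc]
    exact lt_of_lt_of_le (lt_add_one (c n)) (le_max_of_le_left (le_max_left _ _))
  have hF : ∀ n, F (c n) < c (n + 1) := fun n => by
    rw [hc]
    exact lt_of_lt_of_le (lt_add_one (F (c n))) (le_max_of_le_left (le_max_right _ _))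
  have hN : ∀ n, nx (c n) < c (n + 1) := fun n => by
    rw [hc]
    exact lt_of_lt_of_le (lt_add_one (nx (c n))) (le_max_right _ _)
  have hb : BddAbove (Set.range c) := Ordinal.bddAbove_of_small
  have hle : ∀ n, c n ≤ ⨆ n, c n := fun n => le_ciSup hb n
  have hlt' : ∀ n, c n < ⨆ n, c n := fun n => (hlt n).trans_le (hle (n + 1))
  have hex : ∀ i < ⨆ n, c n, ∃ n, i < c n := fun i hi => exists_lt_of_lt_ciSup hi
  refine ⟨⨆ n, c n, hlt' 0, ?_, ?_, ?_⟩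
  · rw [isSuccLimit_iff, isSuccPrelimit_iff_succ_lt]
    refine ⟨?_, ?_⟩
    · intro hmin
      exact absurd (hlt' 0) (hmin.not_lt)
    · intro i hi
      obtain ⟨n, hn⟩ := hex i hi
      exact lt_of_le_of_lt (Order.succ_le_of_lt hn) (hlt' n)
  · intro i hi
    obtain ⟨n, hn⟩ := hex i hi
    exact ⟨nx (c n), hnx _, hn.le.trans (hnx' _), (hN n).trans_le (hle (n + 1))⟩
  · intro i hi
    obtain ⟨n, hn⟩ := hex i hi
    exact ⟨c n, hn.le, (hF n).trans_le (hle (n + 1))⟩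

/-- **Filter control** (section 6). -/
theorem filterControl (T : StageData D) {b : D} (F : SubFilter b) {k : Ordinal.{0}}
    (hk : T.Ob k b) : ∃ i, F.GenBy T i := by
  classical
  by_contra hcon
  push Not at hcon
  -- the bad set
  let S : Set Ordinal.{0} := {i | k ≤ i ∧ ∃ (x : D) (f : x ⟶ b), F.sets f ∧ T.Mem (i + 1) f ∧
    ∀ (y : D) (e : y ⟶ b), F.sets e → T.Mem i e → ¬ Le e f}
  have hS : ∀ i, ∃ j ∈ S, i ≤ j := by
    intro i
    by_contra hno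
    push Not at hno
    refine hcon (max i k) (genBy_of_step T F (max i k) ?_)
    intro j hj x f hf hm
    by_contra hbad
    push Not at hbad
    exact absurd (hno j ⟨(le_max_right _ _).trans hj, x, f, hf, hm, hbad⟩)
      (not_lt.mpr ((le_max_left _ _).trans hj))
  -- data for bad indices
  have hdata : ∀ i ∈ S, ∃ (d : D) (x : d ⟶ b) (n : ℕ) (A : T.a (n + 1) ⟶ b),
      F.sets x ∧ T.Mem (i + 1) x ∧ T.Mem i A ∧
      (∀ ⦃y : D⦄ (e : y ⟶ b), F.sets e → T.Mem i e → Le A e) ∧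
      (∀ ⦃y : D⦄ (e : y ⟶ b), T.Mem i e → Le e x → Le e (T.io n ≫ A)) := by
    rintro i ⟨hki, d, x, hx, hm, hbad⟩
    have hnew : ¬ T.Mem i x := fun h => hbad d x hx h (Le.refl x)
    obtain ⟨n, A, P, p, p', hA, hp, hp', hcomm, hN0, hN1, hN2⟩ :=
      T.newMap x (T.ob_mono hki hk) hm hnew
    refine ⟨d, x, n, A, hx, hm, hA, ?_, ?_⟩
    · intro y e he hme
      rcases hN1 e hme with h | h
      · exact h.1
      · exfalso
        obtain ⟨z, w, hw, ⟨w1, hw1⟩, ⟨w2, hw2⟩⟩ := F.inter x e hx he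
        obtain ⟨q, hq⟩ := h w1 w2 (hw1.trans hw2.symm)
        have hmem : F.sets (p ≫ x) := F.up w (p ≫ x) hw ⟨q, by rw [← Category.assoc, hq, hw1]⟩
        refine hbad P (p ≫ x) hmem ?_ ⟨p, rfl⟩
        rw [hcomm]
        exact T.mem_comp hp' (T.mem_comp (T.mem_mono (zero_le) (T.mem_io n)) hA)
    · rintro y e hme ⟨w, rfl⟩
      obtain ⟨q, rfl⟩ := hN0 w hme
      refine ⟨q ≫ p', ?_⟩
      rw [Category.assoc, Category.assoc, hcomm]
  choose dd xx nn AA hx1 hx2 hA1 hA2 hA3 using hdata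
  choose jj hjS hjle hjmin using fun i => exists_least hS i
  -- the invariant
  let Q : Ordinal.{0} → (m : ℕ) → (T.a (m + 1) ⟶ b) → Prop := fun δ m B =>
    (∀ (i : Ordinal.{0}) (hi : i ∈ S), i < δ → Le B (xx i hi)) ∧
      ∀ ⦃y : D⦄ (e : y ⟶ b), T.Mem δ e → Le e (xx (jj δ) (hjS δ)) → Le e (T.io m ≫ B)
  have hQ0 : ∀ δ, IsSuccLimit δ → Q δ (nn (jj δ) (hjS δ)) (AA (jj δ) (hjS δ)) := by
    intro δ hδ
    refine ⟨fun i hi hiδ => ?_, fun y e hme hle => ?_⟩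
    · refine hA2 (jj δ) (hjS δ) (xx i hi) (hx1 i hi) (T.mem_mono ?_ (hx2 i hi))
      exact (Order.succ_le_of_lt (hδ.succ_lt hiδ)).trans' (by simp) |>.trans (hjle δ)
    · exact hA3 (jj δ) (hjS δ) e (T.mem_mono (hjle δ) hme) hle
  have hdesc : ∀ δ, IsSuccLimit δ → k < δ → ∀ (β : Ordinal.{0}) (m : ℕ) (B : T.a (m + 1) ⟶ b),
      T.Mem β B → Q δ m B → ∃ κ < δ, ∃ (m' : ℕ) (B' : T.a (m' + 1) ⟶ b), T.Mem κ B' ∧ Q δ m' B' := by
    intro δ hδ hkδ β
    induction β using WellFoundedLT.induction with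
    | ind β ih =>
      intro m B hB hQ
      rcases lt_or_ge β δ with hlt | hge
      · exact ⟨β, hlt, m, B, hB, hQ⟩
      rcases Ordinal.zero_or_succ_or_isSuccLimit β with h0 | ⟨β', rfl⟩ | hl
      · subst h0
        exact absurd (lt_of_le_of_lt (zero_le) hkδ) (not_lt.mpr hge)
      · have hδβ : δ ≤ β' := by
          rcases hge.lt_or_eq with h | h
          · exact Order.lt_succ_iff.mp h
          · exact absurd h (by
              rintro rfl
              exact hδ.isSuccPrelimit.succ_ne _ rfl)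
        by_cases hB' : T.Mem β' B
        · exact ih β' (Order.lt_succ β') m B hB' hQ
        · obtain ⟨n, A, P, p, p', hA, hp, hp', hcomm, hN0, hN1, hN2⟩ :=
            T.newMap B (T.ob_mono (hkδ.le.trans hδβ) hk) (by simpa using hB) hB'
          refine ih β' (Order.lt_succ β') n A hA ⟨fun i hi hiδ => ?_, fun y e hme hle => ?_⟩
          · have hmi : T.Mem β' (xx i hi) := T.mem_mono
              ((Order.succ_le_of_lt (hδ.succ_lt hiδ)).trans' (by simp) |>.trans hδβ) (hx2 i hi)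
            rcases hN1 (xx i hi) hmi with h | h
            · exact h.1
            · exfalso
              obtain ⟨w, hw⟩ := hQ.1 i hi hiδ
              exact hN2 (h (𝟙 _) w (by rw [Category.id_comp, hw]))
          · obtain ⟨h, hh⟩ := hQ.2 e hme hle
            have hme' : T.Mem β' ((h ≫ T.io m) ≫ B) := by
              rw [Category.assoc, hh]
              exact T.mem_mono hδβ hme
            obtain ⟨q, hq⟩ := hN0 _ hme'
            refine ⟨q ≫ p', ?_⟩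
            rw [Category.assoc, ← hcomm, ← Category.assoc, hq, Category.assoc, hh]
      · obtain ⟨β', hβ', hm'⟩ := T.mem_limit hl hB
        exact ih β' hβ' m B hm' hQ
  have hdesc' : ∀ δ, IsSuccLimit δ → k < δ → ∃ κ < δ, ∃ (m' : ℕ) (B' : T.a (m' + 1) ⟶ b),
      T.Mem κ B' ∧ Q δ m' B' := by
    intro δ hδ hkδ
    obtain ⟨β, hβ⟩ := T.exists_mem (AA (jj δ) (hjS δ))
    exact hdesc δ hδ hkδ β _ _ hβ (hQ0 δ hδ)
  choose κκ hκ mm BB hBB hQQ using hdesc'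
  -- pressing down
  let Good : Ordinal.{0} → Prop := fun δ => k < δ ∧ IsSuccLimit δ ∧ ∀ i < δ, ∃ j ∈ S, i ≤ j ∧ j < δ
  have hpress : ∃ κ : Ordinal.{0}, ∀ μ : Ordinal.{0}, ∃ (δ : Ordinal.{0}) (hg : Good δ),
      κκ δ hg.2.1 hg.1 ≤ κ ∧ μ ≤ δ := by
    by_contra hno
    push Not at hno
    choose G hG using hno
    obtain ⟨δ, hkδ, hδ, hlim, hcl⟩ := exists_closed_limit hS
      (fun i => ⨆ i' : Set.Iic i, G i') k
    obtain ⟨i', hi', hGi'⟩ := hcl (κκ δ hδ hkδ) (hκ δ hδ hkδ)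
    have h1 := hG i' δ ⟨hkδ, hδ, hlim⟩ hi'
    have hb : BddAbove (Set.range fun i'' : Set.Iic i' => G i'') := Ordinal.bddAbove_of_small
    have h2 : G i' ≤ ⨆ i'' : Set.Iic i', G i'' := le_ciSup hb ⟨i', Set.mem_Iic.mpr (le_refl i')⟩
    exact absurd (h2.trans_lt hGi') (not_lt.mpr h1.le)
  obtain ⟨κ, hκu⟩ := hpress
  let U : Set Ordinal.{0} := {δ | ∃ hg : Good δ, κκ δ hg.2.1 hg.1 ≤ κ ∧ κ < δ}
  have hsmall : Small.{0} {p : Σ m : ℕ, (T.a (m + 1) ⟶ b) // T.Mem κ p.2} := by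
    have : ∀ m, Small.{0} {f : T.a (m + 1) ⟶ b // T.Mem κ f} := fun m => T.small_mem κ _ _
    refine small_of_injective (β := Σ m : ℕ, {f : T.a (m + 1) ⟶ b // T.Mem κ f})
      (f := fun p => ⟨p.1.1, p.1.2, p.2⟩) ?_
    rintro ⟨⟨m, f⟩, hf⟩ ⟨⟨m', f'⟩, hf'⟩ h
    simp only [Sigma.mk.injEq] at h
    obtain ⟨rfl, h⟩ := h
    simpa using h
  have hUsmall : Small.{0} U := by
    let g : U → Σ m : ℕ, (T.a (m + 1) ⟶ b) := fun δ =>
      ⟨mm δ.1 δ.2.choose.2.1 δ.2.choose.1, BB δ.1 δ.2.choose.2.1 δ.2.choose.1⟩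
    have hg : ∀ δ : U, T.Mem κ (g δ).2 := fun δ =>
      T.mem_mono δ.2.choose_spec.1 (hBB δ.1 δ.2.choose.2.1 δ.2.choose.1)
    have hgQ : ∀ δ : U, Q δ.1 (g δ).1 (g δ).2 := fun δ =>
      hQQ δ.1 δ.2.choose.2.1 δ.2.choose.1
    have hne : ∀ δ δ' : U, δ.1 < δ'.1 → g δ ≠ g δ' := by
      intro δ δ' hlt heq
      obtain ⟨j, hj, hδj, hjδ'⟩ := δ'.2.choose.2.2 δ.1 hlt
      have hjj : jj δ.1 < δ'.1 := (hjmin δ.1 j hj hδj).trans_lt hjδ'
      have hle : Le (g δ').2 (xx (jj δ.1) (hjS δ.1)) := (hgQ δ').1 (jj δ.1) (hjS δ.1) hjj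
      have hle2 : Le (g δ').2 (T.io (g δ).1 ≫ (g δ).2) :=
        (hgQ δ).2 (g δ').2 (T.mem_mono δ.2.choose_spec.2.le (hg δ')) hle
      rw [← heq] at hle2
      obtain ⟨h, hh⟩ := hle2
      have hm : Mono (g δ).2 := T.mono _
      refine T.io_not_split (g δ).1 h ?_
      rw [← cancel_mono (g δ).2, Category.assoc, hh, Category.id_comp]
    refine small_of_injective (f := fun δ : U =>
      (⟨g δ, hg δ⟩ : {p : Σ m : ℕ, (T.a (m + 1) ⟶ b) // T.Mem κ p.2})) ?_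
    intro δ δ' h
    have h' : g δ = g δ' := congrArg Subtype.val h
    rcases lt_trichotomy δ.1 δ'.1 with hlt | heq | hgt
    · exact absurd h' (hne δ δ' hlt)
    · exact Subtype.ext heq
    · exact absurd h'.symm (hne δ' δ hgt)
  obtain ⟨μ, hμ⟩ := Ordinal.bddAbove_iff_small.mpr hUsmall
  obtain ⟨δ, hgood, hδκ, hδμ⟩ := hκu (max (μ + 1) (κ + 1))
  have hin : δ ∈ U := ⟨hgood, hδκ, lt_of_lt_of_le (lt_add_one κ) ((le_max_right _ _).trans hδμ)⟩
  exact absurd (hμ hin) (not_le.mpr (lt_of_lt_of_le (lt_add_one μ) ((le_max_left _ _).trans hδμ)))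

end Vale.Agent.P323.H151
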