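import Vale.Agent.P323.Z.Tower
import Vale.Agent.P323.H151.FC

/-!
# P323, section 6: filter control for the interface `Tw`
-/

namespace Vale.Agent.P323.H151

open CategoryTheory Order Vale.Agent.P323.Z

variable {D : Type 1} [Category.{1} D]

/-- `Tw` gives the data used in section 6. -/
noncomputable def stageData (D : Type 1) [Category.{1} D] [Tw D] : StageData D where
  Mem := Mem
  Ob i b := Mem i (𝟙 b)
  mono := TwBase.mono
  mem_mono := TwBase.mem_mono
  mem_comp := TwBase.mem_comp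
  mem_limit h hm := TwBase.mem_lim h hm
  exists_mem := TwBase.mem_ex
  small_mem i x y := by
    have := TwBase.small (D := D) i
    refine small_of_injective (β := {f : Σ x y : D, (x ⟶ y) // Mem i f.2.2})
      (f := fun f => ⟨⟨x, y, f.1⟩, f.2⟩) ?_
    rintro ⟨f, hf⟩ ⟨g, hg⟩ h
    simpa using h
  ob_mono h hb := TwBase.mem_mono h hb
  a := a
  io := ι
  mem_io := TwBase.ι_mem
  io_not_split n h he := TwBase.ι_not (D := D) n ⟨h, he⟩
  newMap {i d b} x hb hx hn := by
    obtain ⟨N⟩ := Tw.nd x hb hx hn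
    exact ⟨N.n, N.A, N.P, N.π, N.π', N.hA, N.hπ, N.hπ', N.eq, N.N0, N.N1, N.N2⟩

/-- **Filter control** in the form used by the other sections. -/
theorem fc [Tw D] {b : D} (F : ∀ x : D, (x ⟶ b) → Prop) (one : F b (𝟙 b))
    (up : ∀ {x y : D} {f : x ⟶ b} {g : y ⟶ b}, Thru f g → F x f → F y g)
    (inter : ∀ {x y z : D} {f : x ⟶ b} {g : y ⟶ b} {p : z ⟶ x} {q : z ⟶ y}, IsPB p q f g →
      F x f → F y g → F z (p ≫ f)) :
    ∃ i, Mem i (𝟙 b) ∧ ∀ j, i ≤ j → ∀ {x : D} (f : x ⟶ b), F x f →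
      ∃ (y : D) (e : y ⟶ b), F y e ∧ Mem j e ∧ Thru e f := by
  obtain ⟨k, hk⟩ := TwBase.mem_ex (𝟙 b)
  let G : SubFilter b :=
    { sets := fun x f => F x f
      one_mem := one
      up := fun x y f g hf hfg => up hfg hf
      inter := fun x y f g hf hg => by
        obtain ⟨i1, h1⟩ := TwBase.mem_ex f
        obtain ⟨i2, h2⟩ := TwBase.mem_ex g
        obtain ⟨z, p, q, -, -, hpb⟩ := TwBase.pb (TwBase.mem_mono (le_max_left i1 i2) h1)
          (TwBase.mem_mono (le_max_right i1 i2) h2)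
        exact ⟨z, p ≫ f, inter hpb hf hg, ⟨p, rfl⟩, ⟨q, hpb.1.symm⟩⟩ }
  obtain ⟨i, hi⟩ := filterControl (stageData D) G hk
  refine ⟨max i k, TwBase.mem_mono (le_max_right _ _) hk, fun j hj x f hf => ?_⟩
  obtain ⟨y, e, he, hm, hle⟩ := hi f hf
  exact ⟨y, e, he, TwBase.mem_mono ((le_max_left _ _).trans hj) hm, hle⟩

end Vale.Agent.P323.H151
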